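import Vale.Agent.P224.R2.H567.T25.Id
import Vale.Agent.P224.R2.H567.Cst

/-!
The far range in dimension 25: volume at most `1428431 / 10 ^ 6 |S ^ 25|` implies
`|∫ N| < 1 / 50 * volume`.
-/

namespace Vale.Agent.P224.R2.H567.T25

open MeasureTheory Set Filter Function Module Vale.Agent.P224 Vale.Agent.P224.UE
open Vale.Agent.P224.POS Vale.Agent.P224.PO Vale.Agent.P224.R2.H178 Vale.Agent.P224.R2.H567
open Vale.Agent.P224.SM2 hiding ker
open scoped Topology RealInnerProductSpace ENNReal ContDiff Manifold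

/-- the ratio of the least Clifford volume in dimension 25 -/
lemma clifford_le : leastClifford 25 ≤ 1428431 / 1000000 * sphereVol 25 :=
  odd_le (k := 12) (by norm_num) (by norm_num) (by norm_num)

/-- The numerical law in dimension 25. -/
theorem law {T ν ρ : ℝ} (hT : T ≤ 1428431 / 1000000) (h0 : 1 / 50 ≤ ν) (h1 : ν ≤ 1 / 8)
    (h2 : ν ^ 2 ≤ ρ) (h3 : ρ ≤ 1) :
    T * (((198364379320800 : ℤ) : ℝ) / ((281474976710656 : ℤ) : ℝ) + ((0 : ℤ) : ℝ) / ((281474976710656 : ℤ) : ℝ)
        + ((-70558711927200 : ℤ) : ℝ) / ((281474976710656 : ℤ) : ℝ) * ν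
        + ((97295651107200 : ℤ) : ℝ) / ((281474976710656 : ℤ) : ℝ) * ν ^ 2
        + (((4307197255200 : ℤ) : ℝ) / ((281474976710656 : ℤ) : ℝ)
          + ((-9050335711200 : ℤ) : ℝ) / ((281474976710656 : ℤ) : ℝ) * ν) * ρ
        + (((1718918157600 : ℤ) : ℝ) / ((281474976710656 : ℤ) : ℝ)
          + ((0 : ℤ) : ℝ) / ((281474976710656 : ℤ) : ℝ)) * ν ^ 2
        + ((0 : ℤ) : ℝ) / ((281474976710656 : ℤ) : ℝ) * ((1 - ρ) / (((25 : ℕ) : ℝ) + 1)))
      + KH 25 * hvalU 25 (rlH 281474976710656 rows) ν ρ < 0 := by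
  have hv := hvalU_eq (m := 25) (D := 281474976710656) (by norm_num) val_chk ν ρ
  have hv2 : hvalU 25 (rlH 281474976710656 rows) ν ρ
      = (-111051856) / (7318349394477056) + (30657536) / (7318349394477056) * ν
        + (-2313344) / (7318349394477056) * ρ := by
    push_cast at hv
    linarith
  have hb := (div_pi_bounds (N := 140737488355328 / 676039) (by norm_num)).1
  rw [← K25] at hb
  have h := law_u (B0 := 198364379320800 / 281474976710656) (B1 := -70558711927200 / 281474976710656)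
    (B2 := 99014569264800 / 281474976710656) (B3 := 4307197255200 / 281474976710656) (B4 := -9050335711200 / 281474976710656)
    (H0 := (-111051856) / (7318349394477056)) (H1 := (30657536) / (7318349394477056))
    (H2 := (-2313344) / (7318349394477056)) (C := 1428431 / 1000000)
    (Kl := 140737488355328 / 676039 * (1000000 / 3141593)) (K := KH 25)
    (ν0 := 1 / 50) (ν1 := 1 / 8) (β := -11312919639 / 17592186044416)
    (by norm_num) (by norm_num) (by norm_num) hb (by norm_num) (by norm_num) (by norm_num)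
    (by norm_num [abs_of_nonneg, abs_of_nonpos]) (by norm_num) (by norm_num) (by norm_num) (by norm_num) (by norm_num)
    (by norm_num) (by norm_num) (by norm_num) (by norm_num) (by norm_num) hT h0 h1 h2 h3
  rw [hv2]
  refine lt_of_eq_of_lt ?_ h
  push_cast
  ring

section

variable {V W M : Type*} [NormedAddCommGroup V] [InnerProductSpace ℝ V] [FiniteDimensional ℝ V]
  [NormedAddCommGroup W] [InnerProductSpace ℝ W] [FiniteDimensional ℝ W]
  [TopologicalSpace M] [ChartedSpace V M]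
  [MeasurableSpace V] [BorelSpace V] [MeasurableSpace M] [BorelSpace M]
  [IsManifold 𝓘(ℝ, V) ∞ M] [CompactSpace M] [T2Space M] [ConnectedSpace M]
  [MeasurableSpace W] [BorelSpace W]

/-- **The far range in dimension 25.** -/
theorem far (hV : finrank ℝ V = 25) (hW : finrank ℝ W = finrank ℝ V + 2)
    {F : M → W} (hF : SphImm V F) (hmin : ∀ x n, IsUnitNormal V F x n → meanCurv V F x n = 0)
    (hng : ¬ ∃ a : W, a ≠ 0 ∧ ∀ x, ⟪F x, a⟫ = 0)
    {N : M → W} (hNs : ContMDiff 𝓘(ℝ, V) 𝓘(ℝ, W) ∞ N) (hN : ∀ x, IsUnitNormal V F x (N x))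
    (htop : ‖∫ x, N x ∂(volM V F)‖ ≤ sphereVol (finrank ℝ V))
    (hhi : (volM V F).real univ ≤ 1428431 / 1000000 * sphereVol (finrank ℝ V)) :
    ‖∫ x, N x ∂(volM V F)‖ < 1 / 50 * (volM V F).real univ := by
  refine far_of (by omega) hW hF hmin hng hNs hN htop (by norm_num) hhi
    (l := rlH 281474976710656 rows) (by rw [hV]; exact rows_ok)
    (fun x N y w v g0 g1 g2 g3 g4 g5 g6 g7 => by
      rw [hV]
      exact pos_of g7 (pos g0 g1 g2 g3 g4 g5 g6 g7)) (by norm_num)
    (fun T ν ρ k1 k2 k3 k4 k5 => by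
      rw [hV]
      exact law k1 k2 k3 k4 k5)

/-- the same with the least Clifford volume -/
theorem far_lc (hV : finrank ℝ V = 25) (hW : finrank ℝ W = finrank ℝ V + 2)
    {F : M → W} (hF : SphImm V F) (hmin : ∀ x n, IsUnitNormal V F x n → meanCurv V F x n = 0)
    (hng : ¬ ∃ a : W, a ≠ 0 ∧ ∀ x, ⟪F x, a⟫ = 0)
    {N : M → W} (hNs : ContMDiff 𝓘(ℝ, V) 𝓘(ℝ, W) ∞ N) (hN : ∀ x, IsUnitNormal V F x (N x))
    (htop : ‖∫ x, N x ∂(volM V F)‖ ≤ sphereVol (finrank ℝ V))
    (hhi : (volM V F).real univ ≤ leastClifford (finrank ℝ V)) :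
    ‖∫ x, N x ∂(volM V F)‖ < 1 / 50 * (volM V F).real univ :=
  far hV hW hF hmin hng hNs hN htop (hhi.trans (by rw [hV]; exact clifford_le))

end

end Vale.Agent.P224.R2.H567.T25
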